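import Vale.Agent.P245.H7.Max2

/-!
# P245: the hand-in statement on Bessel maxima, from the Poincaré inequality
-/

open MeasureTheory Real Set Filter Topology
open scoped ENNReal ContDiff

namespace Vale.Agent.P245.H7

open Vale.Agent.P245 Vale.Agent.P245.H607

theorem hand (h : ∃ C : ℝ, 0 < C ∧ KLS C) :
    ∃ C : ℝ, 0 < C ∧ ∀ (n : ℕ) (μ : Measure (EuclideanSpace ℝ (Fin n))) [IsProbabilityMeasure μ],
      HasLogConcaveDensity μ → ∀ a : ℝ, 0 < a → LinearlySubgaussian μ a →
      ∀ (N : ℕ) (v : Fin N → EuclideanSpace ℝ (Fin n)) (c : Fin N → ℝ) (b : ℝ), 0 < N → 1 ≤ b →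
      (∀ i, ‖v i‖ ≤ 1) → (∀ α : Fin N → ℝ, ‖∑ i, α i • v i‖ ^ 2 ≤ b * ∑ i, α i ^ 2) →
      (∀ r : ℝ, 0 ≤ r →
        μ.real {x | r ≤ |(⨆ i, (inner ℝ (v i) x - c i)) -
            ∫ y, (⨆ i, (inner ℝ (v i) y - c i)) ∂μ|} ≤
          C * b * Real.exp (-(r ^ 2 / (C * a ^ 2)))) ∧
      (1 / 2 ≤ μ.real {x | ∀ i, inner ℝ (v i) x ≤ c i} →
        (∑ i, μ.real {x | c i + a ≤ inner ℝ (v i) x} ≤ C * b) ∧
        (∀ r : ℝ, 0 ≤ r →
          μ.real {x | ∃ i, c i + r ≤ inner ℝ (v i) x} ≤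
            C * b * Real.exp (-(r ^ 2 / (4 * a ^ 2))))) := by
  obtain ⟨C0, hC0, hK⟩ := h
  set K1 : ℝ := max (8 * C0) (exp 16) * exp ((1 + 4 * C0) / 4) with hK1
  set K2 : ℝ := 4 * (8 * C0 + 26) with hK2
  have hmax : 0 < max (8 * C0) (exp 16) := lt_max_of_lt_right (exp_pos _)
  have hK1p : 0 < K1 := by positivity
  have hK2p : 0 < K2 := by positivity
  have hmK : max (8 * C0) (exp 16) ≤ K1 := by
    rw [hK1]
    exact le_mul_of_one_le_right hmax.le (one_le_exp (by positivity))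
  refine ⟨K1 + K2 + 1, by positivity, ?_⟩
  intro n μ _ hlc a ha hsub N v c b hN hb hv1 hv
  have hb0 : 0 < b := by linarith
  have ha2 : 0 < a ^ 2 := by positivity
  constructor
  · intro r hr
    have hup := mx_conc ha hC0 hK hlc hsub hN (c := c) hb hv1 hv hr
    have hlip := mx_lip hN c hv1
    have hconv := mx_conv hN v c
    have hlow := cor_tail ha hC0 hK hlc hsub (lipschitz_of hlip) hconv hr
    set M := ∫ y, mx v c y ∂μ with hM
    have hsub' : {x | r ≤ |(⨆ i, (inner ℝ (v i) x - c i)) -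
          ∫ y, (⨆ i, (inner ℝ (v i) y - c i)) ∂μ|}
        ⊆ {x | M + r ≤ mx v c x} ∪ {x | mx v c x ≤ M - r} := by
      intro x hx
      have hx' : r ≤ |mx v c x - M| := hx
      rcases le_abs.1 hx' with h1 | h1
      · left
        change M + r ≤ mx v c x
        linarith
      · right
        change mx v c x ≤ M - r
        linarith
    have h1 : μ.real {x | r ≤ |(⨆ i, (inner ℝ (v i) x - c i)) -
          ∫ y, (⨆ i, (inner ℝ (v i) y - c i)) ∂μ|}
        ≤ μ.real {x | M + r ≤ mx v c x} + μ.real {x | mx v c x ≤ M - r} :=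
      (measureReal_mono hsub' (measure_ne_top _ _)).trans (measureReal_union_le _ _)
    have hr2 : 0 ≤ r ^ 2 := sq_nonneg r
    have e1 : exp (-(r ^ 2 / (8 * a ^ 2))) ≤ exp (-(r ^ 2 / ((K1 + K2 + 1) * a ^ 2))) := by
      apply exp_le_exp.2
      apply neg_le_neg
      apply div_le_div_of_nonneg_left hr2 (by positivity)
      apply mul_le_mul_of_nonneg_right _ ha2.le
      rw [hK2]; linarith
    have e2 : exp (-(r ^ 2 / (4 * (8 * C0 + 26) * a ^ 2)))
        ≤ exp (-(r ^ 2 / ((K1 + K2 + 1) * a ^ 2))) := by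
      apply exp_le_exp.2
      apply neg_le_neg
      apply div_le_div_of_nonneg_left hr2 (by positivity)
      apply mul_le_mul_of_nonneg_right _ ha2.le
      rw [hK2]; linarith
    set X := exp (-(r ^ 2 / ((K1 + K2 + 1) * a ^ 2))) with hX
    have hX0 : 0 < X := exp_pos _
    have h2 : μ.real {x | M + r ≤ mx v c x} ≤ K1 * b * X :=
      hup.trans (mul_le_mul_of_nonneg_left e1 (by positivity))
    have h3 : μ.real {x | mx v c x ≤ M - r} ≤ X := hlow.trans e2
    calc μ.real {x | r ≤ |(⨆ i, (inner ℝ (v i) x - c i)) -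
          ∫ y, (⨆ i, (inner ℝ (v i) y - c i)) ∂μ|} ≤ K1 * b * X + X := by linarith
      _ ≤ (K1 + K2 + 1) * b * X := by
          have h4 : X ≤ b * X := le_mul_of_one_le_left hX0.le hb
          have h5 : 0 ≤ K2 * b * X := by positivity
          have h6 : (K1 + K2 + 1) * b * X = K1 * b * X + K2 * b * X + b * X := by ring
          linarith
  · intro hB
    constructor
    · refine (count ha hC0 hK hlc hsub hb0 hv hB).trans ?_
      apply mul_le_mul_of_nonneg_right _ hb0.le
      rw [hK2]; linarith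
    · intro r hr
      refine (max_tail ha hC0 hK hlc hsub hb hv1 hv hB hr).trans ?_
      apply mul_le_mul_of_nonneg_right _ (exp_pos _).le
      apply mul_le_mul_of_nonneg_right _ hb0.le
      linarith

end Vale.Agent.P245.H7
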