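import Vale.Agent.P245.H7.Hand

/-!
# P245: Bessel maxima, named form, monotone in the constant
-/

open MeasureTheory Real Set Filter Topology
open scoped ENNReal ContDiff

namespace Vale.Agent.P245.H7

open Vale.Agent.P245 Vale.Agent.P245.H607

/-- Gaussian concentration of the maximum `F x = max_i (⟨v_i, x⟩ - c_i)` of finitely many affine
functions, `‖v_i‖ ≤ 1`, with Bessel constant `b`: two-sided about the mean; and, if `F ≤ 0` with
probability at least one half, a bound for the expected number of `i` with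
`⟨v_i, x⟩ ≥ c_i + a` and for the upper tail. -/
def BesselConcentration {n : ℕ} (μ : Measure (EuclideanSpace ℝ (Fin n))) (C a : ℝ) : Prop :=
  ∀ (N : ℕ) (v : Fin N → EuclideanSpace ℝ (Fin n)) (c : Fin N → ℝ) (b : ℝ), 0 < N → 1 ≤ b →
    (∀ i, ‖v i‖ ≤ 1) → (∀ α : Fin N → ℝ, ‖∑ i, α i • v i‖ ^ 2 ≤ b * ∑ i, α i ^ 2) →
    (∀ r : ℝ, 0 ≤ r →
      μ.real {x | r ≤ |(⨆ i, (inner ℝ (v i) x - c i)) -
          ∫ y, (⨆ i, (inner ℝ (v i) y - c i)) ∂μ|} ≤
        C * b * Real.exp (-(r ^ 2 / (C * a ^ 2)))) ∧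
    (1 / 2 ≤ μ.real {x | ∀ i, inner ℝ (v i) x ≤ c i} →
      (∑ i, μ.real {x | c i + a ≤ inner ℝ (v i) x} ≤ C * b) ∧
      (∀ r : ℝ, 0 ≤ r →
        μ.real {x | ∃ i, c i + r ≤ inner ℝ (v i) x} ≤
          C * b * Real.exp (-(r ^ 2 / (4 * a ^ 2)))))

theorem hand_def (h : ∃ C : ℝ, 0 < C ∧ KLS C) :
    ∃ M : ℝ, 0 < M ∧ ∀ (n : ℕ) (μ : Measure (EuclideanSpace ℝ (Fin n))) [IsProbabilityMeasure μ],
      HasLogConcaveDensity μ → ∀ a : ℝ, 0 < a → LinearlySubgaussian μ a → ∀ C : ℝ, M ≤ C →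
      BesselConcentration μ C a := by
  obtain ⟨M, hM, H⟩ := hand h
  refine ⟨M, hM, ?_⟩
  intro n μ _ hlc a ha hsub C hC N v c b hN hb hv1 hv
  have hb0 : 0 < b := by linarith
  have ha2 : 0 < a ^ 2 := by positivity
  obtain ⟨h1, h2⟩ := H n μ hlc a ha hsub N v c b hN hb hv1 hv
  refine ⟨fun r hr => (h1 r hr).trans ?_, fun hB => ⟨(h2 hB).1.trans ?_, fun r hr =>
    ((h2 hB).2 r hr).trans ?_⟩⟩
  · have e1 : Real.exp (-(r ^ 2 / (M * a ^ 2))) ≤ Real.exp (-(r ^ 2 / (C * a ^ 2))) := by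
      apply exp_le_exp.2
      apply neg_le_neg
      apply div_le_div_of_nonneg_left (sq_nonneg r) (by positivity)
      exact mul_le_mul_of_nonneg_right hC ha2.le
    apply mul_le_mul (mul_le_mul_of_nonneg_right hC hb0.le) e1 (exp_pos _).le
    exact mul_nonneg (hM.le.trans hC) hb0.le
  · exact mul_le_mul_of_nonneg_right hC hb0.le
  · apply mul_le_mul_of_nonneg_right _ (exp_pos _).le
    exact mul_le_mul_of_nonneg_right hC hb0.le

end Vale.Agent.P245.H7
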