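import Vale.Agent.P245.H607.Cor
import Vale.Agent.P245.H14.QCa

/-!
# P245: Gaussian upper tails of maxima of Bessel systems of linear functionals
-/

open MeasureTheory Real Set Filter Topology
open scoped ENNReal ContDiff

namespace Vale.Agent.P245.H7

open Vale.Agent.P245 Vale.Agent.P245.H607

variable {n : ℕ} {μ : Measure (EuclideanSpace ℝ (Fin n))}

theorem expsq [IsProbabilityMeasure μ] {a : ℝ} (ha : 0 < a) (hsub : LinearlySubgaussian μ a)
    {v : EuclideanSpace ℝ (Fin n)} (hv : ‖v‖ ≤ 1) :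
    Integrable (fun x => exp (inner ℝ v x ^ 2 / a ^ 2)) μ ∧
      ∫ x, exp (inner ℝ v x ^ 2 / a ^ 2) ∂μ ≤ 2 := by
  have hcont : Continuous (fun x : EuclideanSpace ℝ (Fin n) => exp (inner ℝ v x ^ 2 / a ^ 2)) := by
    fun_prop
  have key : ∫⁻ x, ENNReal.ofReal (exp (inner ℝ v x ^ 2 / a ^ 2)) ∂μ ≤ 2 := by
    rcases eq_or_ne v 0 with h0 | h0
    · subst h0
      simp
    · have hvp : 0 < ‖v‖ := norm_pos_iff.2 h0
      have h1 : ‖(‖v‖⁻¹ : ℝ) • v‖ = 1 := by
        rw [norm_smul, norm_inv, norm_norm, inv_mul_cancel₀ hvp.ne']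
      refine le_trans (lintegral_mono fun x => ?_) (hsub _ h1)
      apply ENNReal.ofReal_le_ofReal
      apply exp_le_exp.2
      apply div_le_div_of_nonneg_right _ (by positivity)
      rw [real_inner_smul_right, real_inner_comm v x, mul_pow]
      have h2 : 1 ≤ (‖v‖⁻¹) ^ 2 := by
        have : 1 ≤ ‖v‖⁻¹ := (one_le_inv₀ hvp).2 hv
        nlinarith
      have h3 : 0 ≤ (inner ℝ v x : ℝ) ^ 2 := sq_nonneg _
      nlinarith
  have hfin : ∫⁻ x, ENNReal.ofReal (exp (inner ℝ v x ^ 2 / a ^ 2)) ∂μ ≠ (⊤ : ℝ≥0∞) :=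
    ne_top_of_le_ne_top (by norm_num) key
  have hint : Integrable (fun x => exp (inner ℝ v x ^ 2 / a ^ 2)) μ := by
    refine ⟨hcont.aestronglyMeasurable, ?_⟩
    rw [hasFiniteIntegral_iff_ofReal (Eventually.of_forall fun x => (exp_pos _).le)]
    exact lt_top_iff_ne_top.2 hfin
  refine ⟨hint, ?_⟩
  rw [integral_eq_lintegral_of_nonneg_ae (Eventually.of_forall fun x => (exp_pos _).le)
    hcont.aestronglyMeasurable]
  have := ENNReal.toReal_mono (by norm_num) key
  simpa using this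

/-- second moments of linear functionals -/
theorem inner_sq_le [IsProbabilityMeasure μ] {a : ℝ} (ha : 0 < a) (hsub : LinearlySubgaussian μ a)
    {w : EuclideanSpace ℝ (Fin n)} (hw : ‖w‖ ≤ 1) :
    ∫ x, inner ℝ w x ^ 2 ∂μ ≤ a ^ 2 := by
  obtain ⟨h1, h2⟩ := expsq ha hsub hw
  have ha2 : 0 < a ^ 2 := by positivity
  have h3 : ∫ x, inner ℝ w x ^ 2 ∂μ
      ≤ ∫ x, a ^ 2 * (exp (inner ℝ w x ^ 2 / a ^ 2) - 1) ∂μ := by
    apply integral_mono_of_nonneg (Eventually.of_forall fun x => sq_nonneg _)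
      ((h1.sub (integrable_const _)).const_mul _)
    refine Eventually.of_forall fun x => ?_
    have := add_one_le_exp ((inner ℝ w x : ℝ) ^ 2 / a ^ 2)
    calc (inner ℝ w x : ℝ) ^ 2 = a ^ 2 * ((inner ℝ w x : ℝ) ^ 2 / a ^ 2) := by field_simp
      _ ≤ a ^ 2 * (exp ((inner ℝ w x : ℝ) ^ 2 / a ^ 2) - 1) :=
        mul_le_mul_of_nonneg_left (by linarith) ha2.le
  rw [integral_const_mul, integral_sub h1 (integrable_const _)] at h3
  simp only [integral_const, probReal_univ, smul_eq_mul, mul_one] at h3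
  nlinarith

/-- tails of linear functionals -/
theorem lin_tail [IsProbabilityMeasure μ] {a : ℝ} (ha : 0 < a) (hsub : LinearlySubgaussian μ a)
    {v : EuclideanSpace ℝ (Fin n)} (hv : ‖v‖ ≤ 1) {r : ℝ} (hr : 0 ≤ r) :
    μ.real {x | r ≤ inner ℝ v x} ≤ 2 * exp (-(r ^ 2 / a ^ 2)) := by
  obtain ⟨h1, h2⟩ := expsq ha hsub hv
  have h3 := mul_meas_ge_le_integral_of_nonneg (μ := μ)
    (f := fun x => exp (inner ℝ v x ^ 2 / a ^ 2))
    (Eventually.of_forall fun x => (exp_pos _).le) h1 (exp (r ^ 2 / a ^ 2))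
  have h4 : exp (r ^ 2 / a ^ 2) * μ.real {x | r ≤ inner ℝ v x} ≤ 2 := by
    refine le_trans ?_ (h3.trans h2)
    apply mul_le_mul_of_nonneg_left _ (exp_pos _).le
    refine measureReal_mono (fun x hx => ?_) (measure_ne_top _ _)
    change exp (r ^ 2 / a ^ 2) ≤ exp (inner ℝ v x ^ 2 / a ^ 2)
    apply exp_le_exp.2
    apply div_le_div_of_nonneg_right _ (by positivity)
    have hx' : r ≤ inner ℝ v x := hx
    nlinarith
  rw [exp_neg]
  rw [← div_eq_mul_inv, le_div_iff₀ (exp_pos _)]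
  linarith

/-- a Huber type regularisation of the distance to a convex set -/
theorem huber {B : Set (EuclideanSpace ℝ (Fin n))} (hB : Convex ℝ B) (hne : B.Nonempty)
    {A : ℝ} (hA : 0 < A) : ∃ u : EuclideanSpace ℝ (Fin n) → ℝ, UA A u ∧ (∀ x, 0 ≤ u x) ∧
      (∀ x ∈ B, u x = 0) ∧ ∀ x, Metric.infDist x B - A⁻¹ / 2 ≤ u x := by
  have hF : LipschitzWith 1 (fun x => Metric.infDist x B) := Metric.lipschitz_infDist_pt B
  have hlip : ∀ x y : EuclideanSpace ℝ (Fin n),
      Metric.infDist x B - Metric.infDist y B ≤ ‖x - y‖ := by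
    intro x y
    have h1 := hF.dist_le_mul x y
    rw [Real.dist_eq, dist_eq_norm, NNReal.coe_one, one_mul] at h1
    exact (le_abs_self _).trans h1
  have hconv := H607.convexOn_infDist hB hne
  have hT : ∀ w : EuclideanSpace ℝ (Fin n), A⁻¹ * ‖w‖ ^ 2
      ≤ inner ℝ (((A⁻¹ : ℝ) • ContinuousLinearMap.id ℝ (EuclideanSpace ℝ (Fin n))) w) w := by
    intro w
    rw [_root_.smul_apply, ContinuousLinearMap.id_apply, inner_smul_left,
      real_inner_self_eq_norm_sq]
    simp
  have hA' : 0 < A⁻¹ := inv_pos.2 hA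
  have hTw : ∀ w : EuclideanSpace ℝ (Fin n),
      inner ℝ (((A⁻¹ : ℝ) • ContinuousLinearMap.id ℝ (EuclideanSpace ℝ (Fin n))) w) w
        = A⁻¹ * ‖w‖ ^ 2 := by
    intro w
    rw [_root_.smul_apply, ContinuousLinearMap.id_apply, inner_smul_left,
      real_inner_self_eq_norm_sq]
    simp
  refine ⟨_, UA_first hA hconv hlip, ?_, ?_, ?_⟩
  · intro x
    obtain ⟨w, hw, -⟩ := step_min hlip hA' hT x
    rw [hw, hTw]
    have := Metric.infDist_nonneg (s := B)
      (x := x - ((A⁻¹ : ℝ) • ContinuousLinearMap.id ℝ (EuclideanSpace ℝ (Fin n))) w)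
    positivity
  · intro x hx
    obtain ⟨w, hw, h⟩ := step_min hlip hA' hT x
    apply le_antisymm
    · have h1 := h 0
      rw [hTw] at h1
      simpa [Metric.infDist_zero_of_mem hx] using h1
    · rw [hw, hTw]
      have := Metric.infDist_nonneg (s := B)
        (x := x - ((A⁻¹ : ℝ) • ContinuousLinearMap.id ℝ (EuclideanSpace ℝ (Fin n))) w)
      positivity
  · intro x
    obtain ⟨w, hw, -⟩ := step_min hlip hA' hT x
    rw [hw, hTw]
    have h1 := hlip x (x - ((A⁻¹ : ℝ) • ContinuousLinearMap.id ℝ (EuclideanSpace ℝ (Fin n))) w)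
    rw [sub_sub_cancel, _root_.smul_apply, ContinuousLinearMap.id_apply, norm_smul,
      Real.norm_of_nonneg hA'.le] at h1
    have h2 : 0 ≤ A⁻¹ * (‖w‖ - 1) ^ 2 := by positivity
    simp only [_root_.smul_apply, ContinuousLinearMap.id_apply] at h1 ⊢
    nlinarith

theorem norm_sq_int [IsProbabilityMeasure μ] {a : ℝ} (ha : 0 < a)
    (hsub : LinearlySubgaussian μ a) : Integrable (fun x => ‖x‖ ^ 2) μ := by
  have h := H767.tilt_int_sq ha hsub (F := fun _ => (0 : ℝ))
    (LipschitzWith.const' (0 : ℝ) |>.weaken zero_le_one) 0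
  simpa using h

/-- the second moment of a `1`-Lipschitz convex function vanishing on a set of measure `≥ 1/2` -/
theorem second_moment [IsProbabilityMeasure μ] {a C0 : ℝ} (ha : 0 < a) (hC0 : 0 < C0)
    (hK : KLS C0) (hlc : HasLogConcaveDensity μ) (hsub : LinearlySubgaussian μ a)
    {A : ℝ} (hA : 0 < A) {u : EuclideanSpace ℝ (Fin n) → ℝ} (hu : UA A u)
    {B : Set (EuclideanSpace ℝ (Fin n))} (hBm : MeasurableSet B) (hB : 1 / 2 ≤ μ.real B)
    (h0 : ∀ x ∈ B, u x = 0) :
    Integrable (fun x => u x ^ 2) μ ∧ ∫ x, u x ^ 2 ∂μ ≤ 2 * C0 * a ^ 2 := by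
  have h2 := norm_sq_int ha hsub
  obtain ⟨b, K, T, hb, hKK, hT1, hT2, hT3, hT4, hT5⟩ := cov h2
  have h3 := ext h2 C0 K (hK n _ hlc b K hb hKK) (hu.contDiff hA.le) (L := 1) hu.grad_le
  simp_rw [hT1] at h3
  have h4 : ∫ x, inner ℝ (T (gradient u x)) (gradient u x) ∂μ ≤ a ^ 2 := by
    have : ∫ x, inner ℝ (T (gradient u x)) (gradient u x) ∂μ ≤ ∫ _x, a ^ 2 ∂μ := by
      apply integral_mono_of_nonneg (Eventually.of_forall fun x => hT3 _) (integrable_const _)
      exact Eventually.of_forall fun x => (hT4 _).trans (inner_sq_le ha hsub (hu.grad_le x))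
    simpa using this
  have hcont : Continuous u := hu.lipschitz.continuous
  have hui : Integrable u μ := lip_integrable ha hsub hu.lipschitz
  have hsq : Integrable (fun x => u x ^ 2) μ := by
    have hstd := std_of ha hsub hu.lipschitz
    have h1 := integrable_lip_sq hstd 0 hstd.lip
    have e : nu μ u 0 = μ := by unfold nu; simp
    rwa [e] at h1
  refine ⟨hsq, ?_⟩
  set m := ∫ x, u x ∂μ with hm
  have hBc : μ.real Bᶜ ≤ 1 / 2 := by
    rw [probReal_compl_eq_one_sub hBm]; linarith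
  have h5 : 0 ≤ ∫ x, (u x - 2 * m * Bᶜ.indicator (fun _ => (1 : ℝ)) x) ^ 2 ∂μ :=
    integral_nonneg fun x => sq_nonneg _
  have e1 : ∀ x, (u x - 2 * m * Bᶜ.indicator (fun _ => (1 : ℝ)) x) ^ 2
      = u x ^ 2 - 4 * m * u x + 4 * m ^ 2 * Bᶜ.indicator (fun _ => (1 : ℝ)) x := by
    intro x
    by_cases hx : x ∈ B
    · rw [Set.indicator_of_notMem (by simpa using hx), h0 x hx]; ring
    · rw [Set.indicator_of_mem (by simpa using hx)]; ring
  simp_rw [e1] at h5
  have hind : Integrable (Bᶜ.indicator (fun _ => (1 : ℝ))) μ :=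
    (integrable_const _).indicator hBm.compl
  have c1 : ∫ x, (u x ^ 2 - 4 * m * u x + 4 * m ^ 2 * Bᶜ.indicator (fun _ => (1 : ℝ)) x) ∂μ
      = ∫ x, (u x ^ 2 - 4 * m * u x) ∂μ
        + ∫ x, 4 * m ^ 2 * Bᶜ.indicator (fun _ => (1 : ℝ)) x ∂μ :=
    integral_add (hsq.sub (hui.const_mul _)) (hind.const_mul _)
  have c2 : ∫ x, (u x ^ 2 - 4 * m * u x) ∂μ = ∫ x, u x ^ 2 ∂μ - 4 * m * m := by
    rw [integral_sub hsq (hui.const_mul _), integral_const_mul]
  have c3 : ∫ x, 4 * m ^ 2 * Bᶜ.indicator (fun _ => (1 : ℝ)) x ∂μ = 4 * m ^ 2 * μ.real Bᶜ := by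
    rw [integral_const_mul, integral_indicator_const _ hBm.compl]
    simp
  rw [c1, c2, c3] at h5
  have h6 : 4 * m ^ 2 * μ.real Bᶜ ≤ 4 * m ^ 2 * (1 / 2) :=
    mul_le_mul_of_nonneg_left hBc (by positivity)
  have h7 : C0 * ∫ x, inner ℝ (T (gradient u x)) (gradient u x) ∂μ ≤ C0 * a ^ 2 :=
    mul_le_mul_of_nonneg_left h4 hC0.le
  nlinarith

/-- the distance to a polyhedron with a Bessel system of normals -/
theorem dist_ge {N : ℕ} {v : Fin N → EuclideanSpace ℝ (Fin n)} {c : Fin N → ℝ} {b : ℝ} (hb : 0 < b)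
    (hv : ∀ α : Fin N → ℝ, ‖∑ i, α i • v i‖ ^ 2 ≤ b * ∑ i, α i ^ 2)
    {B : Set (EuclideanSpace ℝ (Fin n))} (hB : B = {x | ∀ i, inner ℝ (v i) x ≤ c i})
    (hne : B.Nonempty) (x : EuclideanSpace ℝ (Fin n)) :
    ∑ i, (max (inner ℝ (v i) x - c i) 0) ^ 2 ≤ b * Metric.infDist x B ^ 2 := by
  set α : Fin N → ℝ := fun i => max (inner ℝ (v i) x - c i) 0 with hα
  set S := ∑ i, α i ^ 2 with hS
  have hS0 : 0 ≤ S := Finset.sum_nonneg fun i _ => sq_nonneg _
  have h1 : ∀ y ∈ B, S ≤ √(b * S) * dist x y := by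
    intro y hy
    have hy' : ∀ i, inner ℝ (v i) y ≤ c i := by rw [hB] at hy; exact hy
    have h2 : S ≤ inner ℝ (∑ i, α i • v i) (x - y) := by
      rw [sum_inner, hS]
      apply Finset.sum_le_sum
      intro i _
      rw [real_inner_smul_left, inner_sub_right]
      have h3 : 0 ≤ α i := le_max_right _ _
      rcases le_total (inner ℝ (v i) x - c i) 0 with h | h
      · have : α i = 0 := max_eq_right h
        rw [this]; simp
      · have e : α i = inner ℝ (v i) x - c i := max_eq_left h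
        have h4 := hy' i
        rw [sq]
        apply mul_le_mul_of_nonneg_left _ h3
        linarith
    refine h2.trans ((real_inner_le_norm _ _).trans ?_)
    rw [dist_eq_norm]
    apply mul_le_mul_of_nonneg_right _ (norm_nonneg _)
    exact Real.le_sqrt_of_sq_le (hv α)
  rcases hS0.eq_or_lt with h0 | hpos
  · rw [← h0]; positivity
  have hsq : 0 < √(b * S) := Real.sqrt_pos.2 (by positivity)
  have h2 : S / √(b * S) ≤ Metric.infDist x B := by
    rw [Metric.infDist_eq_iInf]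
    have : Nonempty B := hne.to_subtype
    apply le_ciInf
    rintro ⟨y, hy⟩
    rw [div_le_iff₀ hsq, mul_comm]
    exact h1 y hy
  have h3 : (S / √(b * S)) ^ 2 ≤ Metric.infDist x B ^ 2 :=
    pow_le_pow_left₀ (by positivity) h2 2
  rw [div_pow, Real.sq_sqrt (by positivity)] at h3
  have h4 : b * (S ^ 2 / (b * S)) = S := by field_simp
  calc S = b * (S ^ 2 / (b * S)) := h4.symm
    _ ≤ b * Metric.infDist x B ^ 2 := mul_le_mul_of_nonneg_left h3 hb.le

/-- the expected number of active constraints at height `a` -/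
theorem count [IsProbabilityMeasure μ] {a C0 : ℝ} (ha : 0 < a) (hC0 : 0 < C0)
    (hK : KLS C0) (hlc : HasLogConcaveDensity μ) (hsub : LinearlySubgaussian μ a)
    {N : ℕ} {v : Fin N → EuclideanSpace ℝ (Fin n)} {c : Fin N → ℝ} {b : ℝ} (hb : 0 < b)
    (hv : ∀ α : Fin N → ℝ, ‖∑ i, α i • v i‖ ^ 2 ≤ b * ∑ i, α i ^ 2)
    (hB : 1 / 2 ≤ μ.real {x | ∀ i, inner ℝ (v i) x ≤ c i}) :
    ∑ i, μ.real {x | c i + a ≤ inner ℝ (v i) x} ≤ 8 * C0 * b := by
  set B : Set (EuclideanSpace ℝ (Fin n)) := {x | ∀ i, inner ℝ (v i) x ≤ c i} with hBdef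
  have hBi : B = ⋂ i, {x | inner ℝ (v i) x ≤ c i} := by
    ext x; simp [hBdef]
  have hBc : IsClosed B := by
    rw [hBi]
    exact isClosed_iInter fun i => isClosed_le (by fun_prop) continuous_const
  have hBconv : Convex ℝ B := by
    rw [hBi]
    refine convex_iInter fun i => ?_
    intro x hx y hy s t hs ht hst
    simp only [mem_ofPred_eq, inner_add_right, real_inner_smul_right] at hx hy ⊢
    have h1 := mul_le_mul_of_nonneg_left hx hs
    have h2 := mul_le_mul_of_nonneg_left hy ht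
    have h3 : s * c i + t * c i = c i := by rw [← add_mul, hst, one_mul]
    linarith
  have hne : B.Nonempty := by
    rw [Set.nonempty_iff_ne_empty]
    intro h
    rw [h] at hB
    simp at hB
    linarith
  have hsb : 0 < √b := Real.sqrt_pos.2 hb
  have hA : 0 < √b / a := by positivity
  obtain ⟨u, hu, hu0, huB, hud⟩ := huber hBconv hne hA
  obtain ⟨hsq, hle⟩ := second_moment ha hC0 hK hlc hsub hA hu hBc.measurableSet hB huB
  have hm : ∀ i, MeasurableSet {x : EuclideanSpace ℝ (Fin n) | c i + a ≤ inner ℝ (v i) x} :=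
    fun i => (isClosed_le continuous_const (by fun_prop)).measurableSet
  -- pointwise bound
  have hpt : ∀ x, a ^ 2 * ∑ i, {x | c i + a ≤ inner ℝ (v i) x}.indicator (fun _ => (1 : ℝ)) x
      ≤ 4 * b * u x ^ 2 := by
    intro x
    have h1 := dist_ge hb hv hBdef hne x
    set d := Metric.infDist x B with hd
    have hd0 : 0 ≤ d := Metric.infDist_nonneg
    by_cases hx : ∃ i, c i + a ≤ inner ℝ (v i) x
    · obtain ⟨i0, hi0⟩ := hx
      have h2 : ∀ i, a ^ 2 * {x | c i + a ≤ inner ℝ (v i) x}.indicator (fun _ => (1 : ℝ)) x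
          ≤ (max (inner ℝ (v i) x - c i) 0) ^ 2 := by
        intro i
        by_cases hi : c i + a ≤ inner ℝ (v i) x
        · rw [Set.indicator_of_mem (by exact hi), mul_one]
          exact pow_le_pow_left₀ ha.le (le_max_of_le_left (by linarith)) 2
        · rw [Set.indicator_of_notMem (by exact hi), mul_zero]
          positivity
      have h3 : a ^ 2 * ∑ i, {x | c i + a ≤ inner ℝ (v i) x}.indicator (fun _ => (1 : ℝ)) x
          ≤ b * d ^ 2 := by
        rw [Finset.mul_sum]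
        exact (Finset.sum_le_sum fun i _ => h2 i).trans h1
      have h4 : a ^ 2 ≤ b * d ^ 2 := by
        refine le_trans ?_ h1
        refine le_trans ?_ (Finset.single_le_sum (fun i _ => sq_nonneg _) (Finset.mem_univ i0))
        exact pow_le_pow_left₀ ha.le (le_max_of_le_left (by linarith)) 2
      have h5 : a ≤ √b * d := by
        have : a ^ 2 ≤ (√b * d) ^ 2 := by rw [mul_pow, Real.sq_sqrt hb.le]; exact h4
        exact (sq_le_sq₀ ha.le (by positivity)).1 this
      have h6 : d / 2 ≤ u x := by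
        have h7 := hud x
        have h8 : (√b / a)⁻¹ ≤ d := by
          rw [inv_div, div_le_iff₀ hsb]
          linarith
        linarith
      have h9 : (d / 2) ^ 2 ≤ u x ^ 2 := pow_le_pow_left₀ (by positivity) h6 2
      nlinarith
    · push Not at hx
      have : ∑ i, {x | c i + a ≤ inner ℝ (v i) x}.indicator (fun _ => (1 : ℝ)) x = 0 := by
        apply Finset.sum_eq_zero
        intro i _
        exact Set.indicator_of_notMem (by simpa using hx i) _
      rw [this, mul_zero]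
      positivity
  have hii : ∀ i, Integrable ({x | c i + a ≤ inner ℝ (v i) x}.indicator (fun _ => (1 : ℝ))) μ :=
    fun i => (integrable_const _).indicator (hm i)
  have h1 : a ^ 2 * ∑ i, μ.real {x | c i + a ≤ inner ℝ (v i) x} ≤ 4 * b * (2 * C0 * a ^ 2) := by
    have h2 : ∫ x, a ^ 2 * ∑ i, {x | c i + a ≤ inner ℝ (v i) x}.indicator (fun _ => (1 : ℝ)) x ∂μ
        ≤ ∫ x, 4 * b * u x ^ 2 ∂μ := by
      apply integral_mono ((integrable_finsetSum _ fun i _ => hii i).const_mul _)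
        (hsq.const_mul _)
      exact hpt
    rw [integral_const_mul, integral_const_mul, integral_finsetSum _ fun i _ => hii i] at h2
    have h3 : ∀ i, ∫ x, {x | c i + a ≤ inner ℝ (v i) x}.indicator (fun _ => (1 : ℝ)) x ∂μ
        = μ.real {x | c i + a ≤ inner ℝ (v i) x} := by
      intro i
      rw [integral_indicator_const _ (hm i)]
      simp
    simp_rw [h3] at h2
    exact h2.trans (mul_le_mul_of_nonneg_left hle (by positivity))
  have ha2 : 0 < a ^ 2 := by positivity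
  have h2 : a ^ 2 * ∑ i, μ.real {x | c i + a ≤ inner ℝ (v i) x} ≤ a ^ 2 * (8 * C0 * b) := by
    linarith
  exact le_of_mul_le_mul_left h2 ha2

/-- the tail of one functional between the heights `a` and `r a` -/
theorem one_tail [IsProbabilityMeasure μ] {a : ℝ} (ha : 0 < a)
    (hlc : HasLogConcaveDensity μ) (hsub : LinearlySubgaussian μ a)
    {v : EuclideanSpace ℝ (Fin n)} (hv : ‖v‖ ≤ 1) {c : ℝ}
    (hc : 1 / 2 ≤ μ.real {x | inner ℝ v x ≤ c}) {r : ℝ} (hr : 8 ≤ r) :
    μ.real {x | c + r * a ≤ inner ℝ v x}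
      ≤ exp (-(r ^ 2 / 4)) * μ.real {x | c + a ≤ inner ℝ v x} := by
  have hm : ∀ t : ℝ, MeasurableSet {x : EuclideanSpace ℝ (Fin n) | t ≤ inner ℝ v x} :=
    fun t => (isClosed_le continuous_const (by fun_prop)).measurableSet
  have hnv : ‖-v‖ ≤ 1 := by rwa [norm_neg]
  -- left tail
  have hleft : μ.real {x | 2 * a ≤ inner ℝ (-v) x} < 1 / 2 := by
    have h1 := lin_tail ha hsub hnv (r := 2 * a) (by positivity)
    have e : (2 * a) ^ 2 / a ^ 2 = 4 := by field_simp; norm_num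
    rw [e] at h1
    have h2 : exp (-4) < 1 / 4 := by
      rw [exp_neg, inv_lt_comm₀ (exp_pos _) (by norm_num)]
      have := add_one_lt_exp (show (4 : ℝ) ≠ 0 by norm_num)
      linarith
    linarith
  have hca : -(2 * a) ≤ c := by
    by_contra hcon
    push Not at hcon
    have h1 : μ.real {x | inner ℝ v x ≤ c} ≤ μ.real {x | 2 * a ≤ inner ℝ (-v) x} := by
      refine measureReal_mono (fun x hx => ?_) (measure_ne_top _ _)
      have hx' : inner ℝ v x ≤ c := hx
      change 2 * a ≤ inner ℝ (-v) x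
      rw [inner_neg_left]
      linarith
    linarith
  have hp0 : 1 / 2 ≤ μ.real {x | -(2 * a) ≤ inner ℝ v x} := by
    have h1 : μ.real {x | -(2 * a) ≤ inner ℝ v x}ᶜ ≤ μ.real {x | 2 * a ≤ inner ℝ (-v) x} := by
      refine measureReal_mono (fun x hx => ?_) (measure_ne_top _ _)
      have hx' : ¬ (-(2 * a) ≤ inner ℝ v x) := hx
      change 2 * a ≤ inner ℝ (-v) x
      rw [inner_neg_left]
      linarith
    rw [probReal_compl_eq_one_sub (hm _)] at h1
    linarith
  set p0 := μ.real {x | -(2 * a) ≤ inner ℝ v x} with hp0d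
  set p1 := μ.real {x | c + a ≤ inner ℝ v x} with hp1d
  set p2 := μ.real {x | c + r * a ≤ inner ℝ v x} with hp2d
  have hp1 : 0 ≤ p1 := measureReal_nonneg
  have hp2 : 0 ≤ p2 := measureReal_nonneg
  rcases hp2.eq_or_lt with h0 | hp2p
  · rw [← h0]; positivity
  -- the exponent
  set m : ℝ := c / a + r with hmd
  have hca' : -2 ≤ c / a := by
    rw [le_div_iff₀ ha]; linarith
  have hm6 : 6 ≤ m := by linarith
  have hm2 : 0 < m + 2 := by linarith
  set q : ℝ := (r - 1) / (m + 2) with hq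
  have hq0 : 0 < q := by
    apply div_pos _ hm2
    linarith
  have hq1 : q < 1 := by
    rw [hq, div_lt_one hm2]; linarith
  have hs0 : 0 < 1 - q := by linarith
  have hs1 : 1 - q < 1 := by linarith
  have hcm : c = (m - r) * a := by
    rw [hmd]; field_simp; ring
  have hpl := H14.pl_meas hlc hs0 hs1 (hm (-(2 * a))) (hm (c + r * a)) (hm (c + a)) (by
    intro x hx y hy
    have hx' : -(2 * a) ≤ inner ℝ v x := hx
    have hy' : c + r * a ≤ inner ℝ v y := hy
    change c + a ≤ inner ℝ v ((1 - (1 - q)) • x + (1 - q) • y)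
    rw [inner_add_right, real_inner_smul_right, real_inner_smul_right]
    have h1 := mul_le_mul_of_nonneg_left hx' (show 0 ≤ 1 - (1 - q) by linarith)
    have h2 := mul_le_mul_of_nonneg_left hy' hs0.le
    have h3 : (1 - (1 - q)) * (-(2 * a)) + (1 - q) * (c + r * a) = c + a := by
      have h4 : q * (m + 2) = r - 1 := by rw [hq]; field_simp
      rw [hcm]
      linear_combination (-a) * h4
    linarith)
  have hfin : ∀ S : Set (EuclideanSpace ℝ (Fin n)), μ S ≠ (⊤ : ℝ≥0∞) := fun S => measure_ne_top _ _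
  have hpl' := ENNReal.toReal_mono (hfin _) hpl
  rw [ENNReal.toReal_mul, ← ENNReal.toReal_rpow, ← ENNReal.toReal_rpow, sub_sub_cancel] at hpl'
  change p0 ^ q * p2 ^ (1 - q) ≤ p1 at hpl'
  -- `p2 ≤ 2 exp (- m²)`
  have ht2 : 0 ≤ c + r * a := by rw [hcm]; nlinarith
  have hp2le : p2 ≤ 2 * exp (-(m ^ 2)) := by
    have h1 := lin_tail ha hsub hv ht2
    have e : (c + r * a) ^ 2 / a ^ 2 = m ^ 2 := by
      rw [hmd]; field_simp
    rw [e] at h1
    exact h1
  -- combine
  have h1 : p2 ^ q ≤ (2 * p2) ^ q * p0 ^ q := by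
    rw [← Real.mul_rpow (by positivity) (by positivity)]
    apply Real.rpow_le_rpow hp2 _ hq0.le
    nlinarith
  have h2 : p2 = p2 ^ q * p2 ^ (1 - q) := by
    rw [← Real.rpow_add hp2p]
    simp
  have h3 : p2 ≤ (2 * p2) ^ q * p1 := by
    calc p2 = p2 ^ q * p2 ^ (1 - q) := h2
      _ ≤ ((2 * p2) ^ q * p0 ^ q) * p2 ^ (1 - q) :=
        mul_le_mul_of_nonneg_right h1 (by positivity)
      _ = (2 * p2) ^ q * (p0 ^ q * p2 ^ (1 - q)) := by ring
      _ ≤ (2 * p2) ^ q * p1 := mul_le_mul_of_nonneg_left hpl' (by positivity)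
  refine h3.trans (mul_le_mul_of_nonneg_right ?_ hp1)
  have h4 : (2 * p2) ^ q ≤ (exp (7 / 5 - m ^ 2)) ^ q := by
    apply Real.rpow_le_rpow (by positivity) _ hq0.le
    have h5 : (4 : ℝ) ≤ exp (7 / 5) := by
      have h6 : (4 : ℝ) = exp (log 4) := (exp_log (by norm_num)).symm
      rw [h6]
      apply exp_le_exp.2
      have h7 : log (4 : ℝ) = 2 * log 2 := by
        rw [show (4 : ℝ) = 2 ^ 2 by norm_num, log_pow]; norm_num
      have := Real.log_two_lt_d9
      rw [h7]; linarith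
    rw [sub_eq_add_neg, exp_add]
    calc 2 * p2 ≤ 4 * exp (-(m ^ 2)) := by linarith
      _ ≤ exp (7 / 5) * exp (-(m ^ 2)) := mul_le_mul_of_nonneg_right h5 (exp_pos _).le
  refine h4.trans ?_
  rw [← exp_mul]
  apply exp_le_exp.2
  -- numerical inequality
  have hmr : r ≤ m + 2 := by linarith
  have h5 : r / 3 ≤ (m ^ 2 - 7 / 5) / (m + 2) := by
    rw [le_div_iff₀ hm2]
    nlinarith
  have h6 : (7 / 5 - m ^ 2) * q = -((r - 1) * ((m ^ 2 - 7 / 5) / (m + 2))) := by
    rw [hq]; field_simp; ring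
  rw [h6]
  have h7 : (r - 1) * (r / 3) ≤ (r - 1) * ((m ^ 2 - 7 / 5) / (m + 2)) :=
    mul_le_mul_of_nonneg_left h5 (by linarith)
  nlinarith

/-- **Maxima of Bessel systems of linear functionals have a Gaussian upper tail.** -/
theorem max_tail [IsProbabilityMeasure μ] {a C0 : ℝ} (ha : 0 < a) (hC0 : 0 < C0)
    (hK : KLS C0) (hlc : HasLogConcaveDensity μ) (hsub : LinearlySubgaussian μ a)
    {N : ℕ} {v : Fin N → EuclideanSpace ℝ (Fin n)} {c : Fin N → ℝ} {b : ℝ} (hb : 1 ≤ b)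
    (hv1 : ∀ i, ‖v i‖ ≤ 1)
    (hv : ∀ α : Fin N → ℝ, ‖∑ i, α i • v i‖ ^ 2 ≤ b * ∑ i, α i ^ 2)
    (hB : 1 / 2 ≤ μ.real {x | ∀ i, inner ℝ (v i) x ≤ c i}) {r : ℝ} (hr : 0 ≤ r) :
    μ.real {x | ∃ i, c i + r ≤ inner ℝ (v i) x}
      ≤ max (8 * C0) (exp 16) * b * exp (-(r ^ 2 / (4 * a ^ 2))) := by
  have hb0 : 0 < b := by linarith
  have hr2 : r ^ 2 / (4 * a ^ 2) = (r / a) ^ 2 / 4 := by field_simp
  rw [hr2]
  rcases le_total 8 (r / a) with h8 | h8
  · have hcnt := count ha hC0 hK hlc hsub hb0 hv hB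
    have h1 : μ.real {x | ∃ i, c i + r ≤ inner ℝ (v i) x}
        ≤ ∑ i, μ.real {x | c i + r ≤ inner ℝ (v i) x} := by
      have e : {x | ∃ i, c i + r ≤ inner ℝ (v i) x} = ⋃ i, {x | c i + r ≤ inner ℝ (v i) x} := by
        ext x; simp
      rw [e]
      exact measureReal_iUnion_fintype_le _
    have h2 : ∀ i, μ.real {x | c i + r ≤ inner ℝ (v i) x}
        ≤ exp (-((r / a) ^ 2 / 4)) * μ.real {x | c i + a ≤ inner ℝ (v i) x} := by
      intro i
      have hci : 1 / 2 ≤ μ.real {x | inner ℝ (v i) x ≤ c i} :=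
        hB.trans (measureReal_mono (fun x hx => hx i) (measure_ne_top _ _))
      have h3 := one_tail ha hlc hsub (hv1 i) hci h8
      have e : r / a * a = r := by field_simp
      rwa [e] at h3
    refine h1.trans ((Finset.sum_le_sum fun i _ => h2 i).trans ?_)
    rw [← Finset.mul_sum, mul_comm]
    apply mul_le_mul_of_nonneg_right _ (exp_pos _).le
    exact hcnt.trans (mul_le_mul_of_nonneg_right (le_max_left _ _) hb0.le)
  · have h1 : μ.real {x | ∃ i, c i + r ≤ inner ℝ (v i) x} ≤ 1 := measureReal_le_one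
    refine h1.trans ?_
    have h2 : 1 ≤ exp 16 * exp (-((r / a) ^ 2 / 4)) := by
      rw [← exp_add]
      apply one_le_exp
      have h3 : 0 ≤ r / a := by positivity
      nlinarith
    have h4 : exp 16 * exp (-((r / a) ^ 2 / 4))
        ≤ max (8 * C0) (exp 16) * b * exp (-((r / a) ^ 2 / 4)) := by
      apply mul_le_mul_of_nonneg_right _ (exp_pos _).le
      have h5 : exp 16 ≤ max (8 * C0) (exp 16) := le_max_right _ _
      have h6 : 0 < exp (16 : ℝ) := exp_pos _
      nlinarith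
    linarith

end Vale.Agent.P245.H7
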