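import Vale.Agent.P245.H7.Max

/-!
# P245: two-sided Gaussian concentration of maxima of Bessel systems about the mean
-/

open MeasureTheory Real Set Filter Topology
open scoped ENNReal ContDiff

namespace Vale.Agent.P245.H7

open Vale.Agent.P245 Vale.Agent.P245.H607

variable {n : ℕ} {μ : Measure (EuclideanSpace ℝ (Fin n))}

/-- the maximum of finitely many affine functions -/
noncomputable def mx {N : ℕ} (v : Fin N → EuclideanSpace ℝ (Fin n)) (c : Fin N → ℝ)
    (x : EuclideanSpace ℝ (Fin n)) : ℝ :=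
  ⨆ i, (inner ℝ (v i) x - c i)

theorem mx_le {N : ℕ} (hN : 0 < N) (v : Fin N → EuclideanSpace ℝ (Fin n)) (c : Fin N → ℝ)
    (x : EuclideanSpace ℝ (Fin n)) (s : ℝ) : mx v c x ≤ s ↔ ∀ i, inner ℝ (v i) x - c i ≤ s := by
  have : Nonempty (Fin N) := ⟨⟨0, hN⟩⟩
  exact ciSup_le_iff (Set.finite_range _).bddAbove

theorem le_mx {N : ℕ} (hN : 0 < N) (v : Fin N → EuclideanSpace ℝ (Fin n)) (c : Fin N → ℝ)
    (x : EuclideanSpace ℝ (Fin n)) (s : ℝ) : s ≤ mx v c x ↔ ∃ i, s ≤ inner ℝ (v i) x - c i := by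
  have : Nonempty (Fin N) := ⟨⟨0, hN⟩⟩
  constructor
  · intro h
    obtain ⟨i, hi⟩ := exists_eq_ciSup_of_finite (f := fun i => inner ℝ (v i) x - c i)
    exact ⟨i, h.trans (le_of_eq hi.symm)⟩
  · rintro ⟨i, hi⟩
    exact hi.trans (le_ciSup (f := fun i => inner ℝ (v i) x - c i) (Set.finite_range _).bddAbove i)

theorem mx_lip {N : ℕ} (hN : 0 < N) {v : Fin N → EuclideanSpace ℝ (Fin n)} (c : Fin N → ℝ)
    (hv1 : ∀ i, ‖v i‖ ≤ 1) (x y : EuclideanSpace ℝ (Fin n)) :
    mx v c x - mx v c y ≤ ‖x - y‖ := by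
  obtain ⟨i, hi⟩ := (le_mx hN v c x _).1 le_rfl
  have h1 : inner ℝ (v i) y - c i ≤ mx v c y := (mx_le hN v c y _).1 le_rfl i
  have h2 : inner ℝ (v i) (x - y) ≤ ‖x - y‖ := by
    refine (real_inner_le_norm _ _).trans ?_
    have := hv1 i
    nlinarith [norm_nonneg (x - y)]
  rw [inner_sub_right] at h2
  linarith

theorem mx_conv {N : ℕ} (hN : 0 < N) (v : Fin N → EuclideanSpace ℝ (Fin n)) (c : Fin N → ℝ) :
    ConvexOn ℝ univ (mx v c) := by
  refine ⟨convex_univ, fun x _ y _ s t hs ht hst => ?_⟩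
  rw [mx_le hN]
  intro i
  have h1 : inner ℝ (v i) x - c i ≤ mx v c x := (mx_le hN v c x _).1 le_rfl i
  have h2 : inner ℝ (v i) y - c i ≤ mx v c y := (mx_le hN v c y _).1 le_rfl i
  rw [inner_add_right, real_inner_smul_right, real_inner_smul_right, smul_eq_mul, smul_eq_mul]
  have h3 := mul_le_mul_of_nonneg_left h1 hs
  have h4 := mul_le_mul_of_nonneg_left h2 ht
  have h5 : s * c i + t * c i = c i := by rw [← add_mul, hst, one_mul]
  linarith

/-- a `C¹` approximation from below -/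
theorem approx {F : EuclideanSpace ℝ (Fin n) → ℝ} (hconv : ConvexOn ℝ univ F)
    (hlip : ∀ x y, F x - F y ≤ ‖x - y‖) {A : ℝ} (hA : 0 < A) :
    ∃ u : EuclideanSpace ℝ (Fin n) → ℝ, UA A u ∧ (∀ x, u x ≤ F x) ∧ ∀ x, F x - A⁻¹ / 2 ≤ u x := by
  have hT : ∀ w : EuclideanSpace ℝ (Fin n), A⁻¹ * ‖w‖ ^ 2
      ≤ inner ℝ (((A⁻¹ : ℝ) • ContinuousLinearMap.id ℝ (EuclideanSpace ℝ (Fin n))) w) w := by
    intro w
    rw [_root_.smul_apply, ContinuousLinearMap.id_apply, inner_smul_left,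
      real_inner_self_eq_norm_sq]
    simp
  have hA' : 0 < A⁻¹ := inv_pos.2 hA
  have hTw : ∀ w : EuclideanSpace ℝ (Fin n),
      inner ℝ (((A⁻¹ : ℝ) • ContinuousLinearMap.id ℝ (EuclideanSpace ℝ (Fin n))) w) w
        = A⁻¹ * ‖w‖ ^ 2 := by
    intro w
    rw [_root_.smul_apply, ContinuousLinearMap.id_apply, inner_smul_left,
      real_inner_self_eq_norm_sq]
    simp
  refine ⟨_, UA_first hA hconv hlip, ?_, ?_⟩
  · intro x
    obtain ⟨w, hw, h⟩ := step_min hlip hA' hT x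
    have h1 := h 0
    rw [hTw] at h1
    simpa using h1
  · intro x
    obtain ⟨w, hw, -⟩ := step_min hlip hA' hT x
    rw [hw, hTw]
    have h1 := hlip x (x - ((A⁻¹ : ℝ) • ContinuousLinearMap.id ℝ (EuclideanSpace ℝ (Fin n))) w)
    rw [sub_sub_cancel, _root_.smul_apply, ContinuousLinearMap.id_apply, norm_smul,
      Real.norm_of_nonneg hA'.le] at h1
    have h2 : 0 ≤ A⁻¹ * (‖w‖ - 1) ^ 2 := by positivity
    simp only [_root_.smul_apply, ContinuousLinearMap.id_apply] at h1 ⊢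
    nlinarith

/-- the variance of a `C¹` convex `1`-Lipschitz function -/
theorem var_le [IsProbabilityMeasure μ] {a C0 : ℝ} (ha : 0 < a) (hC0 : 0 < C0)
    (hK : KLS C0) (hlc : HasLogConcaveDensity μ) (hsub : LinearlySubgaussian μ a)
    {A : ℝ} (hA : 0 < A) {u : EuclideanSpace ℝ (Fin n) → ℝ} (hu : UA A u) :
    Integrable u μ ∧ Integrable (fun x => u x ^ 2) μ ∧
      ∫ x, u x ^ 2 ∂μ - (∫ x, u x ∂μ) ^ 2 ≤ C0 * a ^ 2 := by
  have h2 := norm_sq_int ha hsub
  obtain ⟨b, K, T, hb, hKK, hT1, hT2, hT3, hT4, hT5⟩ := cov h2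
  have h3 := ext h2 C0 K (hK n _ hlc b K hb hKK) (hu.contDiff hA.le) (L := 1) hu.grad_le
  simp_rw [hT1] at h3
  have h4 : ∫ x, inner ℝ (T (gradient u x)) (gradient u x) ∂μ ≤ a ^ 2 := by
    have : ∫ x, inner ℝ (T (gradient u x)) (gradient u x) ∂μ ≤ ∫ _x, a ^ 2 ∂μ := by
      apply integral_mono_of_nonneg (Eventually.of_forall fun x => hT3 _) (integrable_const _)
      exact Eventually.of_forall fun x => (hT4 _).trans (inner_sq_le ha hsub (hu.grad_le x))
    simpa using this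
  have hui : Integrable u μ := lip_integrable ha hsub hu.lipschitz
  have hsq : Integrable (fun x => u x ^ 2) μ := by
    have hstd := std_of ha hsub hu.lipschitz
    have h1 := integrable_lip_sq hstd 0 hstd.lip
    have e : nu μ u 0 = μ := by unfold nu; simp
    rwa [e] at h1
  refine ⟨hui, hsq, h3.trans (mul_le_mul_of_nonneg_left h4 hC0.le)⟩

/-- a convex `1`-Lipschitz function is at most its mean plus `a/2 + √(2 C0) a` with probability
at least one half -/
theorem half_mass [IsProbabilityMeasure μ] {a C0 : ℝ} (ha : 0 < a) (hC0 : 0 < C0)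
    (hK : KLS C0) (hlc : HasLogConcaveDensity μ) (hsub : LinearlySubgaussian μ a)
    {F : EuclideanSpace ℝ (Fin n) → ℝ} (hconv : ConvexOn ℝ univ F)
    (hlip : ∀ x y, F x - F y ≤ ‖x - y‖) :
    1 / 2 ≤ μ.real {x | F x ≤ (∫ y, F y ∂μ) + (a / 2 + √(2 * C0) * a)} := by
  have hF : LipschitzWith 1 F := lipschitz_of hlip
  have hFi : Integrable F μ := lip_integrable ha hsub hF
  obtain ⟨u, hu, hule, huge⟩ := approx hconv hlip (inv_pos.2 ha)
  obtain ⟨hui, hsq, hvar⟩ := var_le ha hC0 hK hlc hsub (inv_pos.2 ha) hu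
  rw [inv_inv] at huge
  set m := ∫ x, u x ∂μ with hm
  have hmF : m ≤ ∫ y, F y ∂μ := integral_mono hui hFi hule
  have hucont : Continuous u := hu.lipschitz.continuous
  set t := √(2 * C0) * a with ht
  have ht0 : 0 < t := by positivity
  have ht2 : t ^ 2 = 2 * C0 * a ^ 2 := by rw [ht, mul_pow, Real.sq_sqrt (by positivity)]
  have hi : Integrable (fun x => (u x - m) ^ 2) μ := by
    have e : (fun x => (u x - m) ^ 2) = fun x => (u x ^ 2 - 2 * m * u x) + m ^ 2 := by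
      funext x; ring
    rw [e]
    exact (hsq.sub (hui.const_mul _)).add (integrable_const _)
  have hint : ∫ x, (u x - m) ^ 2 ∂μ ≤ C0 * a ^ 2 := by
    have e : ∀ x, (u x - m) ^ 2 = (u x ^ 2 - 2 * m * u x) + m ^ 2 := fun x => by ring
    simp_rw [e]
    have c1 : ∫ x, ((u x ^ 2 - 2 * m * u x) + m ^ 2) ∂μ
        = ∫ x, (u x ^ 2 - 2 * m * u x) ∂μ + ∫ _x, m ^ 2 ∂μ :=
      integral_add (hsq.sub (hui.const_mul _)) (integrable_const _)
    have c2 : ∫ x, (u x ^ 2 - 2 * m * u x) ∂μ = ∫ x, u x ^ 2 ∂μ - 2 * m * m := by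
      rw [integral_sub hsq (hui.const_mul _), integral_const_mul]
    rw [c1, c2, integral_const]
    simp only [probReal_univ, smul_eq_mul, one_mul]
    nlinarith
  have hcheb := mul_meas_ge_le_integral_of_nonneg (μ := μ) (f := fun x => (u x - m) ^ 2)
    (Eventually.of_forall fun x => sq_nonneg _) hi (t ^ 2)
  have h1 : μ.real {x | t ^ 2 ≤ (u x - m) ^ 2} ≤ 1 / 2 := by
    have h2 : t ^ 2 * μ.real {x | t ^ 2 ≤ (u x - m) ^ 2} ≤ t ^ 2 * (1 / 2) := by
      refine hcheb.trans (hint.trans ?_)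
      rw [ht2]; linarith
    exact le_of_mul_le_mul_left h2 (by positivity)
  have hms : MeasurableSet {x | F x ≤ (∫ y, F y ∂μ) + (a / 2 + t)} :=
    (isClosed_le hF.continuous continuous_const).measurableSet
  have h2 : μ.real {x | F x ≤ (∫ y, F y ∂μ) + (a / 2 + t)}ᶜ ≤ μ.real {x | t ^ 2 ≤ (u x - m) ^ 2} := by
    refine measureReal_mono (fun x hx => ?_) (measure_ne_top _ _)
    have hx' : ¬ (F x ≤ (∫ y, F y ∂μ) + (a / 2 + t)) := hx
    push Not at hx'
    have h3 := huge x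
    change t ^ 2 ≤ (u x - m) ^ 2
    apply pow_le_pow_left₀ ht0.le
    linarith
  rw [probReal_compl_eq_one_sub hms] at h2
  linarith

/-- **Two-sided Gaussian concentration about the mean.** -/
theorem mx_conc [IsProbabilityMeasure μ] {a C0 : ℝ} (ha : 0 < a) (hC0 : 0 < C0)
    (hK : KLS C0) (hlc : HasLogConcaveDensity μ) (hsub : LinearlySubgaussian μ a)
    {N : ℕ} (hN : 0 < N) {v : Fin N → EuclideanSpace ℝ (Fin n)} {c : Fin N → ℝ} {b : ℝ}
    (hb : 1 ≤ b) (hv1 : ∀ i, ‖v i‖ ≤ 1)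
    (hv : ∀ α : Fin N → ℝ, ‖∑ i, α i • v i‖ ^ 2 ≤ b * ∑ i, α i ^ 2) {r : ℝ} (hr : 0 ≤ r) :
    μ.real {x | (∫ y, mx v c y ∂μ) + r ≤ mx v c x}
      ≤ max (8 * C0) (exp 16) * exp ((1 + 4 * C0) / 4) * b * exp (-(r ^ 2 / (8 * a ^ 2))) := by
  have hlip := mx_lip hN c hv1
  have hconv := mx_conv hN v c
  have hhm := half_mass ha hC0 hK hlc hsub hconv hlip
  set M := ∫ y, mx v c y ∂μ with hM
  set t := a / 2 + √(2 * C0) * a with ht
  have ht0 : 0 < t := by positivity
  have ht2 : t ^ 2 ≤ (1 + 4 * C0) * a ^ 2 := by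
    have h1 : √(2 * C0) ^ 2 = 2 * C0 := Real.sq_sqrt (by positivity)
    have h2 : 0 ≤ (1 / 2 - √(2 * C0)) ^ 2 * a ^ 2 := by positivity
    have h3 : t ^ 2 = 2 * (a / 2) ^ 2 + 2 * (√(2 * C0) ^ 2) * a ^ 2
        - (1 / 2 - √(2 * C0)) ^ 2 * a ^ 2 := by rw [ht]; ring
    rw [h3, h1]
    nlinarith [sq_nonneg a]
  have ha2 : 0 < a ^ 2 := by positivity
  have hset : {x : EuclideanSpace ℝ (Fin n) | ∀ i, inner ℝ (v i) x ≤ c i + (M + t)}
      = {x | mx v c x ≤ M + t} := by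
    ext x
    simp only [mem_ofPred_eq]
    rw [mx_le hN]
    exact forall_congr' fun i => by constructor <;> intro h <;> linarith
  have hB : 1 / 2 ≤ μ.real {x | ∀ i, inner ℝ (v i) x ≤ c i + (M + t)} := by
    rw [hset]; exact hhm
  have hCp : 0 < max (8 * C0) (exp 16) := lt_max_of_lt_right (exp_pos _)
  -- the comparison of the exponentials
  have hexp : ∀ s : ℝ, 0 ≤ s → r ≤ s + t →
      exp (-(s ^ 2 / (4 * a ^ 2))) ≤ exp ((1 + 4 * C0) / 4) * exp (-(r ^ 2 / (8 * a ^ 2))) := by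
    intro s hs hrs
    rw [← exp_add]
    apply exp_le_exp.2
    have h1 : r ^ 2 ≤ 2 * s ^ 2 + 2 * t ^ 2 := by
      have : r ^ 2 ≤ (s + t) ^ 2 := pow_le_pow_left₀ hr hrs 2
      nlinarith [sq_nonneg (s - t)]
    have h2 : r ^ 2 / (8 * a ^ 2) ≤ s ^ 2 / (4 * a ^ 2) + (1 + 4 * C0) / 4 := by
      rw [div_add_div _ _ (by positivity) (by positivity), div_le_div_iff₀ (by positivity)
        (by positivity)]
      nlinarith
    linarith
  rcases le_total t r with h | h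
  · have h1 := max_tail ha hC0 hK hlc hsub hb hv1 hv hB (r := r - t) (by linarith)
    have e : {x | ∃ i, c i + (M + t) + (r - t) ≤ inner ℝ (v i) x} = {x | M + r ≤ mx v c x} := by
      ext x
      simp only [mem_ofPred_eq]
      rw [le_mx hN]
      exact exists_congr fun i => by constructor <;> intro h <;> linarith
    rw [e] at h1
    refine h1.trans ?_
    have h2 := hexp (r - t) (by linarith) (by linarith)
    calc max (8 * C0) (exp 16) * b * exp (-((r - t) ^ 2 / (4 * a ^ 2)))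
        ≤ max (8 * C0) (exp 16) * b
          * (exp ((1 + 4 * C0) / 4) * exp (-(r ^ 2 / (8 * a ^ 2)))) :=
          mul_le_mul_of_nonneg_left h2 (by positivity)
      _ = _ := by ring
  · have h1 := hexp 0 le_rfl (by linarith)
    simp only [ne_eq, OfNat.ofNat_ne_zero, not_false_eq_true, zero_pow, zero_div, neg_zero,
      exp_zero] at h1
    refine (measureReal_le_one (μ := μ)).trans ?_
    have h2 : 1 ≤ max (8 * C0) (exp 16) := by
      refine le_trans ?_ (le_max_right _ _)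
      exact one_le_exp (by norm_num)
    have h3 : 1 ≤ max (8 * C0) (exp 16) * b := by nlinarith
    calc (1 : ℝ) ≤ exp ((1 + 4 * C0) / 4) * exp (-(r ^ 2 / (8 * a ^ 2))) := h1
      _ ≤ max (8 * C0) (exp 16) * b * (exp ((1 + 4 * C0) / 4) * exp (-(r ^ 2 / (8 * a ^ 2)))) :=
          le_mul_of_one_le_left (by positivity) h3
      _ = _ := by ring

end Vale.Agent.P245.H7
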